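import Vale.Agent.P032.S5.H287.HMTop
import Vale.Agent.P032.S5.H360.Match

/-!
# P032: unit pairs of harmless four-coloured points

`Harm.edge` : `z`, `x` harmless, `|x - z| = 1`, both colours of `T z \ A` are colours of `x`: the
two colours are both in the broken pair `B` of `x` or both outside.
`Harm.far_pair` : if `T z \ A = T x \ B` then `B` and `T z` are disjoint.
`Harm.unit_pair` : so `B = T z \ A` or `z, x` is a `D`-star pair.
-/

open Set Filter Topology Metric

noncomputable section

namespace Vale.Agent.P032.Six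

variable {k : ℕ} {U : Fin k → Set ℂ} {T : ℂ → Set (Fin k)}

/-- no proper subset of a palette with at least four colours suffices near the point -/
def MinF (U : Fin k → Set ℂ) (T : ℂ → Set (Fin k)) : Prop :=
  ∀ z, 4 ≤ (T z).ncard → ∀ s, s ⊆ T z → s ≠ T z → ¬ ∀ᶠ w in 𝓝 z, Suf U s w

namespace Harm

variable {z x : ℂ} {A B : Set (Fin k)}

/-- four colours near a harmless point: the full palette -/
theorem full (h : Irr U T) (hx : Harm T x B) : ∀ᶠ w in 𝓝 x, 4 ≤ (T w).ncard → T w = T x := by
  filter_upwards [h.nhd x] with w hw h4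
  exact Set.eq_of_subset_of_ncard_le hw (by rw [hx.card]; exact h4) (Set.toFinite _)

/-- no-layering at a harmless point -/
theorem layerE (h : Irr U T) (hx : Harm T x B) : ∀ᶠ w in 𝓝 x, B ⊆ T w → T w = T x := by
  obtain ⟨p, hp, hJ⟩ := hx.arc
  have hpB : T p = B := hJ.self_of_nhdsWithin hp
  filter_upwards [h.no_layer hp, hx.full h] with w h1 h2 h3
  exact h2 (h1 (by rw [hpB]; exact h3))

/-- **Edge lemma.** -/
theorem edge (h : Irr U T) (hmin : MinF U T) (hz : Harm T z A) (hx : Harm T x B)
    (hxz : dist x z = 1) (hC : T z \ A ⊆ T x) {c d : Fin k} (hc : c ∈ T z \ A)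
    (hd : d ∈ T z \ A) (hcB : c ∈ B) : d ∈ B := by
  by_contra hdB
  have hcd : c ≠ d := fun hcd => hdB (hcd ▸ hcB)
  have hCcd : T z \ A = {c, d} := by
    refine (Set.eq_of_subset_of_ncard_le (s := {c, d}) ?_ ?_ (Set.toFinite _)).symm
    · rintro m (rfl | rfl)
      · exact hc
      · exact hd
    · rw [hz.cardC, Set.ncard_pair hcd]
  -- the fourth colour
  obtain ⟨f, hf, hfd⟩ : ∃ f ∈ T x \ B, f ≠ d := by
    by_contra hcon
    push Not at hcon
    have h1 : (T x \ B) ⊆ {d} := fun m hm => hcon m hm
    have := Set.ncard_le_ncard h1 (Set.toFinite _)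
    rw [hx.cardC, Set.ncard_singleton] at this
    omega
  have hCx : T x \ B = {d, f} := by
    refine (Set.eq_of_subset_of_ncard_le (s := {d, f}) ?_ ?_ (Set.toFinite _)).symm
    · rintro m (rfl | rfl)
      · exact ⟨hC hd, hdB⟩
      · exact hf
    · rw [hx.cardC, Set.ncard_pair (Ne.symm hfd)]
  have hcf : c ≠ f := fun hcf => hf.2 (hcf ▸ hcB)
  have hB : ∀ m ∈ T x, m ≠ d → m ≠ f → m ∈ B := by
    intro m hm hmd hmf
    by_contra hmB
    have : m ∈ T x \ B := ⟨hm, hmB⟩
    rw [hCx] at this
    rcases this with h1 | h1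
    · exact hmd h1
    · exact hmf h1
  have hBc : ∀ m ∈ B, m ≠ c → B = {c, m} := by
    intro m hm hmc
    refine (Set.eq_of_subset_of_ncard_le (s := {c, m}) ?_ ?_ (Set.toFinite _)).symm
    · rintro i (rfl | rfl)
      · exact hcB
      · exact hm
    · rw [hx.cardA, Set.ncard_pair (Ne.symm hmc)]
  have hs : ∀ᶠ w in 𝓝 x, ∀ b ∈ T w, c ∈ T w → b = c ∨ f ∈ T w := by
    filter_upwards [h.nhd x, hx.full h, hx.layerE h, hz.cd h hxz] with w h1 h2 h3 h4 b hb hcw
    by_cases hbc : b = c
    · exact Or.inl hbc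
    right
    have key : ∀ m ∈ T w, m ≠ c → m ≠ d → f ∈ T w := by
      intro m hm hmc hmd
      by_cases hmf : m = f
      · exact hmf ▸ hm
      · have hmB := hB m (h1 hm) hmd hmf
        have : T w = T x := h3 (by
          rw [hBc m hmB hmc]
          rintro i (rfl | rfl)
          · exact hcw
          · exact hm)
        rw [this]; exact hf.1
    by_cases hbd : b = d
    · subst hbd
      rcases h4 (by
        rw [hCcd]
        rintro i (rfl | rfl)
        · exact hcw
        · exact hb) with h5 | h5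
      · have h6 : ¬ T w ⊆ T z ∨ 4 ≤ (T w).ncard := by
          by_contra hcon
          push Not at hcon
          have h7 := hz.h1 w h5 hcon.1
          have h8 : T z ⊆ T w := fun i hi => by
            by_cases hiA : i ∈ A
            · exact h7 hiA
            · have : i ∈ T z \ A := ⟨hi, hiA⟩
              rw [hCcd] at this
              rcases this with rfl | rfl
              · exact hcw
              · exact hb
          have := Set.ncard_le_ncard h8 (Set.toFinite _)
          rw [hz.card] at this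
          omega
        rcases h6 with h6 | h6
        · obtain ⟨m, hm, hmz⟩ := Set.not_subset.1 h6
          refine key m hm ?_ ?_
          · rintro rfl; exact hmz hc.1
          · rintro rfl; exact hmz hd.1
        · rw [h2 h6]; exact hf.1
      · rw [h2 h5]; exact hf.1
    · exact key b hb hbc hbd
  obtain ⟨p, hp, hJ⟩ := hx.arc
  have h1 := h.sole (h.sub x hf.1) hs hp (hJ.mono fun q hq => h.sub q (by rw [hq]; exact hcB))
  refine hmin x (by rw [hx.card]) (T x \ {c}) sdiff_subset (fun hcon => ?_)
    (h.suf_of_single hcf hf.1 h1)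
  have : c ∈ T x \ {c} := by rw [hcon]; exact hC hc
  exact this.2 rfl

/-- **Line lemma.** -/
theorem far_pair (h : Irr U T) (hz : Harm T z A) (hx : Harm T x B) (hxz : dist x z = 1)
    (hC : T z \ A = T x \ B) : Disjoint B (T z) := by
  obtain ⟨p, hp, hJ⟩ := hz.arc
  have hpA : T p = A := hJ.self_of_nhdsWithin hp
  have hBz : ∀ i ∈ B, i ∈ T z → i ∈ A := by
    intro i hi hiz
    by_contra hiA
    have : i ∈ T z \ A := ⟨hiz, hiA⟩
    rw [hC] at this
    exact this.2 hi
  have hBA : B ≠ A := by
    rintro rfl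
    have hT : T x = T z := by
      rw [← Set.sdiff_union_of_subset hx.sub, ← hC, Set.sdiff_union_of_subset hz.sub]
    obtain ⟨q, hq, hqz, hq1, hq2, -, hq3⟩ := h.arc_of_sub hxz hT.le
      (inter_mem (hx.layerE h) (h.nhd x))
    have h1 : B ⊆ T q := hz.h1 q hqz (hq2.trans hT.le)
    have h2 : T q = T x := hq.1 h1
    rw [h2, hT, Set.sdiff_self] at hq3
    simp at hq3
  rw [Set.disjoint_left]
  intro m hmB hmz
  have hmA := hBz m hmB hmz
  obtain ⟨e, heB, hem⟩ : ∃ e ∈ B, e ≠ m := by
    by_contra hcon
    push Not at hcon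
    have := Set.ncard_le_ncard (show B ⊆ {m} from fun i hi => hcon i hi) (Set.toFinite _)
    rw [hx.cardA, Set.ncard_singleton] at this
    omega
  obtain ⟨b, hbA, hbm⟩ : ∃ b ∈ A, b ≠ m := by
    by_contra hcon
    push Not at hcon
    have := Set.ncard_le_ncard (show A ⊆ {m} from fun i hi => hcon i hi) (Set.toFinite _)
    rw [hz.cardA, Set.ncard_singleton] at this
    omega
  have hA2 : A = {m, b} := by
    refine (Set.eq_of_subset_of_ncard_le (s := {m, b}) ?_ ?_ (Set.toFinite _)).symm
    · rintro i (rfl | rfl)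
      · exact hmA
      · exact hbA
    · rw [hz.cardA, Set.ncard_pair (Ne.symm hbm)]
  have hB2 : B = {m, e} := by
    refine (Set.eq_of_subset_of_ncard_le (s := {m, e}) ?_ ?_ (Set.toFinite _)).symm
    · rintro i (rfl | rfl)
      · exact hmB
      · exact heB
    · rw [hx.cardA, Set.ncard_pair (Ne.symm hem)]
  have hez : e ∉ T z := by
    intro hez
    have heA := hBz e heB hez
    refine hBA (Set.eq_of_subset_of_ncard_le ?_ (by rw [hx.cardA, hz.cardA]) (Set.toFinite _))
    rw [hB2]
    rintro i (rfl | rfl)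
    · exact hmA
    · exact heA
  -- `b` is carried by `S(x)` near `z`
  have hb : ∀ᶠ w in 𝓝[sphere x 1] z, b ∈ T w := by
    filter_upwards [mem_nhdsWithin_of_mem_nhds (h.nhd z), self_mem_nhdsWithin] with w h1 h2
    by_contra hbw
    have h3 : T w ⊆ T x := by
      intro i hi
      have hiz := h1 hi
      by_cases hiA : i ∈ A
      · rw [hA2] at hiA
        rcases hiA with rfl | rfl
        · exact hx.sub hmB
        · exact absurd hi hbw
      · have : i ∈ T z \ A := ⟨hiz, hiA⟩
        rw [hC] at this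
        exact this.1
    exact hez (h1 (hx.h1 w h2 h3 heB))
  obtain ⟨q, hq, hqz, hqx, hqx2, -⟩ := exists_generic (y := x) hp hJ
  have hq : T q = A := hq
  rcases h.mx.partner_line (u := x) (p := z) (t := b) (by rw [dist_comm]; exact hxz)
    (hb.mono fun w hw => h.sub w hw) (v := q) (by rw [dist_comm]; exact hqz)
    (h.sub q (by rw [hq]; exact hbA)) with h1 | h1
  · exact hqx h1
  · exact hqx2 h1

/-- **Unit pairs of harmless points.** -/
theorem unit_pair (h : Irr U T) (hmin : MinF U T) (hz : Harm T z A) (hx : Harm T x B)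
    (hxz : dist x z = 1) (hC : T z \ A ⊆ T x) :
    B = T z \ A ∨ (T z \ A = T x \ B ∧ Disjoint B (T z)) := by
  by_cases hcase : ∃ c ∈ T z \ A, c ∈ B
  · obtain ⟨c, hc, hcB⟩ := hcase
    left
    refine (Set.eq_of_subset_of_ncard_le (s := T z \ A) (t := B) (fun d hd => ?_)
      (by rw [hx.cardA, hz.cardC]) (Set.toFinite _)).symm
    exact hz.edge h hmin hx hxz hC hc hd hcB
  · push Not at hcase
    right
    have h1 : T z \ A = T x \ B :=
      Set.eq_of_subset_of_ncard_le (fun d hd => ⟨hC hd, hcase d hd⟩)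
        (by rw [hx.cardC, hz.cardC]) (Set.toFinite _)
    exact ⟨h1, hz.far_pair h hx hxz h1⟩

end Harm

end Vale.Agent.P032.Six
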